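import Vale.Agent.P208.Main
import Vale.Agent.P208.Dbl

namespace Vale.Agent.Results.P208.NoEmbed

open Vale.Agent.P208

/-- There is a doubling subset of real separable Hilbert space with no bi-Lipschitz embedding
into any finite-dimensional Euclidean space. -/
theorem result : ∃ S : Set (lp (fun _ : ℕ => ℝ) 2),
    (∃ lam : ℕ, ∀ s ∈ S, ∀ ρ : ℝ, 0 < ρ → ∃ t : Finset (lp (fun _ : ℕ => ℝ) 2),
      (↑t : Set (lp (fun _ : ℕ => ℝ) 2)) ⊆ S ∧ t.card ≤ lam ∧
        S ∩ Metric.closedBall s ρ ⊆ ⋃ y ∈ t, Metric.ball y (ρ / 2)) ∧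
    ∀ (k : ℕ) (D a : ℝ) (f : S → EuclideanSpace ℝ (Fin k)), 0 < a →
      ¬ ∀ x y : S, a * dist x y ≤ ‖f x - f y‖ ∧ ‖f x - f y‖ ≤ D * a * dist x y := by
  classical
  refine ⟨SS, doubling, fun k D a f ha hf => ?_⟩
  let F : (ℕ → ℕ) → ℝ → ℝ → EuclideanSpace ℝ (Fin k) := fun c x y =>
    if h : Adm c x y then f ⟨pt c x y, c, x, y, h, rfl⟩ else 0
  have key : ∀ c x y c' x' y', Adm c x y → Adm c' x' y' →
      a * ‖pt c x y - pt c' x' y'‖ ≤ ‖F c x y - F c' x' y'‖ ∧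
        ‖F c x y - F c' x' y'‖ ≤ |D * a| * ‖pt c x y - pt c' x' y'‖ := by
    intro c x y c' x' y' h h'
    have := hf ⟨pt c x y, c, x, y, h, rfl⟩ ⟨pt c' x' y', c', x', y', h', rfl⟩
    rw [Subtype.dist_eq, dist_eq_norm] at this
    simp only [F, dif_pos h, dif_pos h']
    exact ⟨this.1, this.2.trans (mul_le_mul_of_nonneg_right (le_abs_self _) (norm_nonneg _))⟩
  refine no_good (F := F) (L := |D * a|) (m := a) ⟨abs_nonneg _, ha, ?_, ?_, ?_⟩
  · intro c x y x' y' h h'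
    exact (key _ _ _ _ _ _ h h').2.trans
      (mul_le_mul_of_nonneg_left (pt_move c x y x' y') (abs_nonneg _))
  · intro c j i x y hc h h'
    exact (key _ _ _ _ _ _ h' h).2.trans
      (mul_le_mul_of_nonneg_left (pt_upd c j i hc x y) (abs_nonneg _))
  · intro c j i i' x y hne h h'
    refine le_trans (mul_le_mul_of_nonneg_left (pt_low_c _ _ x y x y j ?_) ha.le)
      (key _ _ _ _ _ _ h h').1
    simpa using hne

end Vale.Agent.Results.P208.NoEmbed
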